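import Mathlib

/-! P245, KLS, abstract layer, part 1 (helper731): the complexification of a real Hilbert space and a real
functional calculus for a symmetric operator `R` with `0 ≤ R ≤ 1`, read off on the Hilbert sum of two copies. -/

set_option autoImplicit false
set_option linter.unusedSectionVars false

noncomputable section

open scoped InnerProductSpace ComplexConjugate

namespace Vale.Agent.P245.H731

/-- The real functional calculus of a positive contraction of a complex Hilbert space. -/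
theorem cal_gen {E : Type*} [NormedAddCommGroup E] [InnerProductSpace ℂ E] [CompleteSpace E] (T : E →L[ℂ] E)
    (hT : T.IsPositive) (h1 : ‖T‖ ≤ 1) :
    ∃ Φ : C(ℝ, ℝ) → (E →L[ℂ] E), Φ 1 = 1 ∧ Φ (ContinuousMap.id ℝ) = T ∧ (∀ f g, Φ (f * g) = Φ f * Φ g) ∧
      (∀ f g, Φ (f + g) = Φ f + Φ g) ∧ (∀ (c : ℝ) f x, Φ (c • f) x = (c : ℂ) • Φ f x) ∧
      (∀ f x y, inner ℂ (Φ f x) y = inner ℂ x (Φ f y)) ∧
      ∀ (f : C(ℝ, ℝ)) (c : ℝ), (∀ r ∈ Set.Icc (0 : ℝ) 1, |f r| ≤ c) → ‖Φ f‖ ≤ c := by
  have hsa : IsSelfAdjoint T := hT.isSelfAdjoint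
  have hsp : spectrum ℝ T ⊆ Set.Icc 0 1 := by
    intro r hr
    constructor
    · exact SpectrumRestricts.nnreal_iff.1 hT.spectrumRestricts r hr
    · have h2 : ‖r‖ ≤ ‖T‖ * ‖(1 : E →L[ℂ] E)‖ := spectrum.norm_le_norm_mul_of_mem hr
      have h3 : ‖(1 : E →L[ℂ] E)‖ ≤ 1 := ContinuousLinearMap.norm_id_le
      have h5 : ‖T‖ * ‖(1 : E →L[ℂ] E)‖ ≤ 1 * 1 := by gcongr
      have h6 := le_abs_self r
      rw [Real.norm_eq_abs] at h2
      linarith
  refine ⟨fun f => cfc (fun r => f r) T, ?_, ?_, ?_, ?_, ?_, ?_, ?_⟩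
  · exact cfc_const_one ℝ T
  · exact cfc_id' ℝ T
  · intro f g
    exact cfc_mul (fun r => f r) (fun r => g r) T f.continuous.continuousOn g.continuous.continuousOn
  · intro f g
    exact cfc_add (a := T) (fun r => f r) (fun r => g r) f.continuous.continuousOn g.continuous.continuousOn
  · intro c f x
    have h2 : cfc (fun r => (c • f) r) T = c • cfc (fun r => f r) T :=
      cfc_const_mul c (fun r => f r) T f.continuous.continuousOn
    show (cfc (fun r => (c • f) r) T) x = _
    rw [h2]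
    rfl
  · intro f x y
    have h2 : IsSelfAdjoint (cfc (fun r : ℝ => f r) T) := cfc_predicate _ _
    rw [ContinuousLinearMap.isSelfAdjoint_iff_isSymmetric] at h2
    exact h2 x y
  · intro f c hf
    have hc : 0 ≤ c := (abs_nonneg _).trans (hf 0 ⟨le_rfl, zero_le_one⟩)
    exact norm_cfc_le hc (fun r hr => hf r (hsp hr))

/-- The Hilbert sum of two copies. -/
def CxH (H : Type*) : Type _ := WithLp 2 (H × H)

variable {H : Type*} [NormedAddCommGroup H] [InnerProductSpace ℝ H]

instance : NormedAddCommGroup (CxH H) := inferInstanceAs (NormedAddCommGroup (WithLp 2 (H × H)))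
instance : InnerProductSpace ℝ (CxH H) := inferInstanceAs (InnerProductSpace ℝ (WithLp 2 (H × H)))
instance [CompleteSpace H] : CompleteSpace (CxH H) := inferInstanceAs (CompleteSpace (WithLp 2 (H × H)))

/-- The pair. -/
def mk (a b : H) : CxH H := WithLp.toLp 2 (a, b)
/-- First coordinate. -/
def re (x : CxH H) : H := (WithLp.ofLp x).1
/-- Second coordinate. -/
def im (x : CxH H) : H := (WithLp.ofLp x).2

@[simp] theorem re_mk (a b : H) : re (mk a b) = a := rfl
@[simp] theorem im_mk (a b : H) : im (mk a b) = b := rfl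
theorem ext' {x y : CxH H} (h1 : re x = re y) (h2 : im x = im y) : x = y := by
  apply (WithLp.equiv 2 (H × H)).injective
  exact Prod.ext h1 h2
@[simp] theorem re_add (x y : CxH H) : re (x + y) = re x + re y := rfl
@[simp] theorem im_add (x y : CxH H) : im (x + y) = im x + im y := rfl
@[simp] theorem re_zero : re (0 : CxH H) = 0 := rfl
@[simp] theorem im_zero : im (0 : CxH H) = 0 := rfl
@[simp] theorem re_rsmul (c : ℝ) (x : CxH H) : re (c • x) = c • re x := rfl
@[simp] theorem im_rsmul (c : ℝ) (x : CxH H) : im (c • x) = c • im x := rfl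

theorem rinner (x y : CxH H) : ⟪x, y⟫_ℝ = ⟪re x, re y⟫_ℝ + ⟪im x, im y⟫_ℝ :=
  WithLp.prod_inner_apply x y

theorem nsq (x : CxH H) : ‖x‖ ^ 2 = ‖re x‖ ^ 2 + ‖im x‖ ^ 2 := by
  rw [← real_inner_self_eq_norm_sq, rinner, real_inner_self_eq_norm_sq, real_inner_self_eq_norm_sq]

instance : SMul ℂ (CxH H) := ⟨fun c x => mk (c.re • re x - c.im • im x) (c.re • im x + c.im • re x)⟩

@[simp] theorem re_csmul (c : ℂ) (x : CxH H) : re (c • x) = c.re • re x - c.im • im x := rfl
@[simp] theorem im_csmul (c : ℂ) (x : CxH H) : im (c • x) = c.re • im x + c.im • re x := rfl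

instance : Module ℂ (CxH H) where
  one_smul x := by apply ext' <;> simp
  mul_smul c d x := by
    apply ext' <;> simp <;> module
  smul_zero c := by apply ext' <;> simp
  smul_add c x y := by apply ext' <;> simp <;> module
  add_smul c d x := by apply ext' <;> simp <;> module
  zero_smul x := by apply ext' <;> simp

theorem nrm_csmul (c : ℂ) (x : CxH H) : ‖c • x‖ = ‖c‖ * ‖x‖ := by
  have h1 : ‖c • x‖ ^ 2 = (‖c‖ * ‖x‖) ^ 2 := by
    rw [mul_pow, nsq, nsq, re_csmul, im_csmul, norm_sub_sq_real, norm_add_sq_real, ← Complex.normSq_eq_norm_sq,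
      Complex.normSq_apply, norm_smul, norm_smul, norm_smul, norm_smul, real_inner_smul_left,
      real_inner_smul_right, real_inner_smul_left, real_inner_smul_right, real_inner_comm (re x) (im x)]
    simp only [mul_pow, Real.norm_eq_abs, sq_abs]
    ring
  have h2 : (0 : ℝ) ≤ ‖c • x‖ := norm_nonneg _
  have h3 : (0 : ℝ) ≤ ‖c‖ * ‖x‖ := by positivity
  nlinarith [sq_nonneg (‖c • x‖ - ‖c‖ * ‖x‖)]

instance : NormedSpace ℂ (CxH H) where
  norm_smul_le c x := (nrm_csmul c x).le

instance : InnerProductSpace ℂ (CxH H) where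
  inner x y := ⟨⟪re x, re y⟫_ℝ + ⟪im x, im y⟫_ℝ, ⟪re x, im y⟫_ℝ - ⟪im x, re y⟫_ℝ⟩
  norm_sq_eq_re_inner x := by
    rw [nsq, ← real_inner_self_eq_norm_sq, ← real_inner_self_eq_norm_sq]
    rfl
  conj_inner_symm x y := by
    apply Complex.ext
    · simp [real_inner_comm]
    · simp [real_inner_comm]
  add_left x y z := by
    apply Complex.ext
    · simp [inner_add_left]; ring
    · simp [inner_add_left]; ring
  smul_left x y c := by
    apply Complex.ext
    · simp [inner_add_left, inner_sub_left, real_inner_smul_left]; ring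
    · simp [inner_add_left, inner_sub_left, real_inner_smul_left]; ring

theorem cinner_re (x y : CxH H) : (inner ℂ x y).re = ⟪x, y⟫_ℝ := (rinner x y).symm
theorem cinner_im (x y : CxH H) : (inner ℂ x y).im = ⟪re x, im y⟫_ℝ - ⟪im x, re y⟫_ℝ := rfl

theorem rsmul_eq (c : ℝ) (x : CxH H) : c • x = (c : ℂ) • x := by
  apply ext'
  · rw [re_csmul, re_rsmul, Complex.ofReal_re, Complex.ofReal_im, zero_smul, sub_zero]
  · rw [im_csmul, im_rsmul, Complex.ofReal_re, Complex.ofReal_im, zero_smul, add_zero]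

/-- The diagonal lift of a real operator to a complex linear operator. -/
def lift (T : H →L[ℝ] H) : CxH H →L[ℂ] CxH H :=
  LinearMap.mkContinuous
    { toFun := fun x => mk (T (re x)) (T (im x))
      map_add' := fun x y => by
        apply ext'
        · simp
        · simp
      map_smul' := fun c x => by
        apply ext'
        · simp
        · simp } ‖T‖ (by
      intro x
      have h1 : ‖mk (T (re x)) (T (im x))‖ ^ 2 ≤ (‖T‖ * ‖x‖) ^ 2 := by
        rw [nsq, mul_pow, nsq, re_mk, im_mk, mul_add, ← mul_pow, ← mul_pow]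
        gcongr
        · exact T.le_opNorm _
        · exact T.le_opNorm _
      exact (pow_le_pow_iff_left₀ (norm_nonneg _) (by positivity) two_ne_zero).1 h1)

@[simp] theorem re_lift (T : H →L[ℝ] H) (x : CxH H) : re (lift T x) = T (re x) := rfl
@[simp] theorem im_lift (T : H →L[ℝ] H) (x : CxH H) : im (lift T x) = T (im x) := rfl

/-- The diagonal lift as a real operator. -/
def liftR (T : H →L[ℝ] H) : CxH H →L[ℝ] CxH H :=
  LinearMap.mkContinuous
    { toFun := fun x => mk (T (re x)) (T (im x))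
      map_add' := fun x y => by
        apply ext'
        · simp
        · simp
      map_smul' := fun c x => by
        apply ext'
        · simp
        · simp } ‖T‖ (by
      intro x
      have h1 : ‖mk (T (re x)) (T (im x))‖ ^ 2 ≤ (‖T‖ * ‖x‖) ^ 2 := by
        rw [nsq, mul_pow, nsq, re_mk, im_mk, mul_add, ← mul_pow, ← mul_pow]
        gcongr
        · exact T.le_opNorm _
        · exact T.le_opNorm _
      exact (pow_le_pow_iff_left₀ (norm_nonneg _) (by positivity) two_ne_zero).1 h1)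

@[simp] theorem re_liftR (T : H →L[ℝ] H) (x : CxH H) : re (liftR T x) = T (re x) := rfl
@[simp] theorem im_liftR (T : H →L[ℝ] H) (x : CxH H) : im (liftR T x) = T (im x) := rfl

variable [CompleteSpace H]

theorem lift_pos {T : H →L[ℝ] H} (hs : ∀ x y, ⟪T x, y⟫_ℝ = ⟪x, T y⟫_ℝ) (h0 : ∀ x, 0 ≤ ⟪T x, x⟫_ℝ) :
    (lift T).IsPositive := by
  constructor
  · intro x y
    apply Complex.ext
    · have := cinner_re (lift T x) y
      have := cinner_re x (lift T y)
      simp only [ContinuousLinearMap.coe_coe]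
      rw [cinner_re, cinner_re, rinner, rinner, re_lift, im_lift, re_lift, im_lift, hs, hs]
    · simp only [ContinuousLinearMap.coe_coe]
      rw [cinner_im, cinner_im, re_lift, im_lift, re_lift, im_lift, hs, hs]
  · intro x
    have h1 : 0 ≤ (inner ℂ (lift T x) x).re := by
      rw [cinner_re, rinner, re_lift, im_lift]
      exact add_nonneg (h0 _) (h0 _)
    exact h1

theorem lift_nrm {T : H →L[ℝ] H} (h1 : ∀ x, ‖T x‖ ≤ ‖x‖) : ‖lift T‖ ≤ 1 := by
  apply ContinuousLinearMap.opNorm_le_bound _ zero_le_one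
  intro x
  rw [one_mul]
  have h2 : ‖lift T x‖ ^ 2 ≤ ‖x‖ ^ 2 := by
    rw [nsq, nsq, re_lift, im_lift]
    gcongr
    · exact h1 _
    · exact h1 _
  exact (pow_le_pow_iff_left₀ (norm_nonneg _) (norm_nonneg _) two_ne_zero).1 h2

/-- A complex operator as a real operator. -/
def toR (T : CxH H →L[ℂ] CxH H) : CxH H →L[ℝ] CxH H where
  toFun := T
  map_add' := T.map_add
  map_smul' := fun c x => by
    rw [RingHom.id_apply, rsmul_eq, T.map_smul, rsmul_eq]
  cont := T.continuous

@[simp] theorem toR_apply (T : CxH H →L[ℂ] CxH H) (x : CxH H) : toR T x = T x := rfl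

/-- **The real functional calculus.** -/
theorem exists_cal {T : H →L[ℝ] H} (hs : ∀ x y, ⟪T x, y⟫_ℝ = ⟪x, T y⟫_ℝ) (h0 : ∀ x, 0 ≤ ⟪T x, x⟫_ℝ)
    (h1 : ∀ x, ‖T x‖ ≤ ‖x‖) :
    ∃ Φ : C(ℝ, ℝ) →ₐ[ℝ] (CxH H →L[ℝ] CxH H), Φ (ContinuousMap.id ℝ) = liftR T ∧
      (∀ f x y, ⟪Φ f x, y⟫_ℝ = ⟪x, Φ f y⟫_ℝ) ∧
      ∀ (f : C(ℝ, ℝ)) (c : ℝ), (∀ r ∈ Set.Icc (0 : ℝ) 1, |f r| ≤ c) → ∀ x, ‖Φ f x‖ ≤ c * ‖x‖ := by
  obtain ⟨Φ, g1, g2, g3, g4, g5, g6, g7⟩ := cal_gen (lift T) (lift_pos hs h0) (lift_nrm h1)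
  have g5' : ∀ (c : ℝ) f x, toR (Φ (c • f)) x = c • toR (Φ f) x := by
    intro c f x
    rw [toR_apply, toR_apply, g5, rsmul_eq]
  refine ⟨{ toFun := fun f => toR (Φ f)
            map_one' := ?_
            map_mul' := ?_
            map_zero' := ?_
            map_add' := ?_
            commutes' := ?_ }, ?_, ?_, ?_⟩
  · ext x
    rw [toR_apply, g1]
    rfl
  · intro f g
    ext x
    rw [toR_apply, g3]
    rfl
  · ext x
    have h2 := g5' 0 0 x
    rw [zero_smul, zero_smul] at h2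
    exact h2
  · intro f g
    ext x
    rw [toR_apply, g4]
    rfl
  · intro c
    ext x
    rw [Algebra.algebraMap_eq_smul_one, Algebra.algebraMap_eq_smul_one]
    refine (g5' c 1 x).trans ?_
    rw [toR_apply, g1]
    rfl
  · ext x
    change toR (Φ (ContinuousMap.id ℝ)) x = _
    rw [toR_apply, g2]
    rfl
  · intro f x y
    change ⟪toR (Φ f) x, y⟫_ℝ = ⟪x, toR (Φ f) y⟫_ℝ
    rw [toR_apply, toR_apply, ← cinner_re, ← cinner_re]
    exact congrArg Complex.re (g6 f x y)
  · intro f c hf x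
    change ‖toR (Φ f) x‖ ≤ _
    rw [toR_apply]
    exact (ContinuousLinearMap.le_opNorm _ _).trans (mul_le_mul_of_nonneg_right (g7 f c hf) (norm_nonneg _))

end Vale.Agent.P245.H731
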