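import Vale.Agent.P245.H731.Win

/-! P245, KLS, abstract layer, part 3 (helper731): the window decomposition and the bound of the form. -/

set_option autoImplicit false
set_option linter.unusedSectionVars false

noncomputable section

open scoped InnerProductSpace Topology
open Filter

namespace Vale.Agent.P245.H731

/-- piecewise linear cut-off -/
def rho (j : ℕ) : C(ℝ, ℝ) := ⟨fun r => max 0 (min 1 (2 ^ j * r - 1)), by fun_prop⟩
/-- band function -/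
def ff (j : ℕ) : C(ℝ, ℝ) := rho (j + 1) - rho j
/-- `λ = 1/r - 1`, truncated -/
def ell (j : ℕ) : C(ℝ, ℝ) := ⟨fun r => (max r ((1 / 2) ^ (j + 1)))⁻¹ - 1, by
  apply Continuous.sub _ continuous_const
  apply Continuous.inv₀ (by fun_prop)
  intro r
  have : (0 : ℝ) < (1 / 2) ^ (j + 1) := by positivity
  exact (lt_max_of_lt_right this).ne'⟩

theorem rho_apply (j : ℕ) (r : ℝ) : rho j r = max 0 (min 1 (2 ^ j * r - 1)) := rfl
theorem ff_apply (j : ℕ) (r : ℝ) : ff j r = rho (j + 1) r - rho j r := rfl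
theorem ell_apply (j : ℕ) (r : ℝ) : ell j r = (max r ((1 / 2) ^ (j + 1)))⁻¹ - 1 := rfl

theorem rho_nonneg (j : ℕ) (r : ℝ) : 0 ≤ rho j r := le_max_left _ _
theorem rho_le_one (j : ℕ) (r : ℝ) : rho j r ≤ 1 := max_le zero_le_one (min_le_left _ _)

theorem rho_zero_of {j : ℕ} {r : ℝ} (h : 2 ^ j * r ≤ 1) : rho j r = 0 := by
  rw [rho_apply]
  apply max_eq_left
  exact (min_le_right _ _).trans (by linarith)

theorem rho_one_of {j : ℕ} {r : ℝ} (h : 2 ≤ 2 ^ j * r) : rho j r = 1 := by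
  rw [rho_apply, min_eq_left (by linarith), max_eq_right zero_le_one]

theorem ff_nonneg {j : ℕ} {r : ℝ} (hr : 0 ≤ r) : 0 ≤ ff j r := by
  rw [ff_apply, sub_nonneg, rho_apply, rho_apply]
  have : (2 : ℝ) ^ j * r ≤ 2 ^ (j + 1) * r := by
    rw [pow_succ]
    nlinarith [pow_pos (show (0 : ℝ) < 2 by norm_num) j, mul_nonneg (pow_pos (show (0 : ℝ) < 2 by norm_num) j).le hr]
  exact max_le_max le_rfl (min_le_min le_rfl (by linarith))

theorem ff_le_one (j : ℕ) (r : ℝ) : ff j r ≤ 1 := by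
  rw [ff_apply]
  linarith [rho_nonneg j r, rho_le_one (j + 1) r]

theorem ff_window {j : ℕ} {r : ℝ} (hr : 0 ≤ r) : r * (1 + ell j r) * ff j r = ff j r := by
  have hp : (0 : ℝ) < (1 / 2) ^ (j + 1) := by positivity
  have hpp : (2 : ℝ) ^ (j + 1) * (1 / 2) ^ (j + 1) = 1 := by rw [← mul_pow]; norm_num
  rcases le_or_gt r ((1 / 2) ^ (j + 1)) with h | h
  · have h1 : (2 : ℝ) ^ (j + 1) * r ≤ 1 := by
      calc (2 : ℝ) ^ (j + 1) * r ≤ 2 ^ (j + 1) * (1 / 2) ^ (j + 1) := by gcongr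
        _ = 1 := hpp
    have h2 : (2 : ℝ) ^ j * r ≤ 1 := by
      have h3 : 0 ≤ (2 : ℝ) ^ j * r := by positivity
      rw [pow_succ] at h1
      nlinarith
    rw [ff_apply, rho_zero_of h1, rho_zero_of h2]
    ring
  · have h4 : r ≠ 0 := by linarith
    rw [ell_apply, max_eq_left h.le]
    have : 1 + (r⁻¹ - 1) = r⁻¹ := by ring
    rw [this, mul_inv_cancel₀ h4, one_mul]

theorem ell_bound {j : ℕ} {r : ℝ} (hr1 : r ≤ 1) : |ell j r| ≤ 2 ^ (j + 1) := by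
  have hp : (0 : ℝ) < (1 / 2) ^ (j + 1) := by positivity
  have hp1 : ((1 : ℝ) / 2) ^ (j + 1) ≤ 1 := pow_le_one₀ (by norm_num) (by norm_num)
  rw [ell_apply]
  have h1 : (max r ((1 / 2) ^ (j + 1)))⁻¹ ≤ 2 ^ (j + 1) := by
    have h2 : (2 : ℝ) ^ (j + 1) = ((1 / 2) ^ (j + 1))⁻¹ := by
      rw [← inv_pow]; norm_num
    rw [h2]
    exact inv_anti₀ hp (le_max_right _ _)
  have h3 : 1 ≤ (max r ((1 / 2) ^ (j + 1)))⁻¹ :=
    (one_le_inv₀ (lt_max_of_lt_right hp)).2 (max_le hr1 hp1)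
  rw [abs_le]
  constructor <;> linarith

theorem sum_ff (N : ℕ) (r : ℝ) : ∑ j ∈ Finset.range N, ff j r = rho N r - rho 0 r := by
  induction N with
  | zero => simp
  | succ N ih => rw [Finset.sum_range_succ, ih, ff_apply]; ring

theorem sq_ff {j : ℕ} {r : ℝ} (hr : 0 ≤ r) : (2 ^ (j + 1) * (ff j r * r)) ^ 2 ≤ 16 * ff j r := by
  have h0 := ff_nonneg (j := j) hr
  have h1 := ff_le_one j r
  rcases lt_or_ge (2 ^ j * r) 2 with h | h
  · have h2 : (2 ^ (j + 1) * (ff j r * r)) ^ 2 = (2 * (2 ^ j * r)) ^ 2 * (ff j r) ^ 2 := by ring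
    rw [h2]
    have h3 : 0 ≤ (2 : ℝ) ^ j * r := by positivity
    have h4 : (2 * (2 ^ j * r)) ^ 2 ≤ 16 := by nlinarith
    have h5 : (ff j r) ^ 2 ≤ ff j r := by nlinarith
    exact mul_le_mul h4 h5 (sq_nonneg _) (by norm_num)
  · have h2 : ff j r = 0 := by
      rw [ff_apply, rho_one_of h, rho_one_of]
      · ring
      · rw [pow_succ]; linarith
    rw [h2]
    simp

variable {V : Type*} [NormedAddCommGroup V] [InnerProductSpace ℝ V] [CompleteSpace V]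
variable {R : V →L[ℝ] V} {G X : ℕ → V →L[ℝ] V →L[ℝ] ℝ}

/-- a real functional calculus for `R` -/
structure Cal (R : V →L[ℝ] V) (Φ : C(ℝ, ℝ) →ₐ[ℝ] (V →L[ℝ] V)) : Prop where
  id_eq : Φ (ContinuousMap.id ℝ) = R
  sym : ∀ f x y, ⟪Φ f x, y⟫_ℝ = ⟪x, Φ f y⟫_ℝ
  nrm : ∀ (f : C(ℝ, ℝ)) (c : ℝ), (∀ r ∈ Set.Icc (0 : ℝ) 1, |f r| ≤ c) → ∀ x, ‖Φ f x‖ ≤ c * ‖x‖

variable {Φ : C(ℝ, ℝ) →ₐ[ℝ] (V →L[ℝ] V)}

theorem Cal.eq_of (hΦ : Cal R Φ) {f g : C(ℝ, ℝ)} (h : ∀ r ∈ Set.Icc (0 : ℝ) 1, f r = g r) (x : V) :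
    Φ f x = Φ g x := by
  have h1 := hΦ.nrm (f - g) 0 (fun r hr => by
    rw [ContinuousMap.sub_apply, h r hr, sub_self, abs_zero]) x
  rw [zero_mul, map_sub, ContinuousLinearMap.sub_apply] at h1
  exact sub_eq_zero.1 (norm_le_zero_iff.1 h1)

theorem Cal.mul (hΦ : Cal R Φ) (f g : C(ℝ, ℝ)) (x : V) : Φ f (Φ g x) = Φ (f * g) x := by
  rw [map_mul]; rfl

theorem Cal.R_eq (hΦ : Cal R Φ) (x : V) : R x = Φ (ContinuousMap.id ℝ) x := by rw [hΦ.id_eq]

theorem Cal.comm (hΦ : Cal R Φ) (f : C(ℝ, ℝ)) (x : V) : R (Φ f x) = Φ f (R x) := by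
  rw [hΦ.R_eq, hΦ.R_eq, hΦ.mul, hΦ.mul, mul_comm]

theorem Cal.window (hΦ : Cal R Φ) (j : ℕ) (x : V) : Wd R (Φ (ell j)) (Φ (ff j) x) := by
  unfold Wd
  have h1 : Φ (ff j) x + Φ (ell j) (Φ (ff j) x) = Φ ((1 + ell j) * ff j) x := by
    rw [add_mul, one_mul, map_add, ContinuousLinearMap.add_apply, hΦ.mul]
  rw [h1, hΦ.R_eq, hΦ.mul]
  apply hΦ.eq_of
  intro r hr
  rw [← ff_window (j := j) hr.1]
  simp only [ContinuousMap.mul_apply, ContinuousMap.add_apply, ContinuousMap.one_apply, ContinuousMap.id_apply]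
  rw [ff_window (j := j) hr.1]
  have := ff_window (j := j) hr.1
  linarith

theorem Cal.sum_sq (hΦ : Cal R Φ) (N : ℕ) (q : V) :
    ∑ j ∈ Finset.range N, (2 ^ (j + 1) * ‖Φ (ff j) (R q)‖) ^ 2 ≤ 16 * ‖q‖ ^ 2 := by
  have h1 : ∀ j : ℕ, (2 ^ (j + 1) * ‖Φ (ff j) (R q)‖) ^ 2 =
      ⟪Φ (((2 : ℝ) ^ (j + 1) • (ff j * ContinuousMap.id ℝ)) * ((2 : ℝ) ^ (j + 1) • (ff j * ContinuousMap.id ℝ))) q,
        q⟫_ℝ := by
    intro j
    set h : C(ℝ, ℝ) := (2 : ℝ) ^ (j + 1) • (ff j * ContinuousMap.id ℝ) with hh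
    have h2 : 2 ^ (j + 1) * ‖Φ (ff j) (R q)‖ = ‖Φ h q‖ := by
      rw [hh, map_smul, ContinuousLinearMap.smul_apply, norm_smul, hΦ.R_eq, hΦ.mul]
      simp
    rw [h2, ← real_inner_self_eq_norm_sq, ← hΦ.mul]
    rw [hΦ.sym h (Φ h q) q]
  rw [Finset.sum_congr rfl (fun j _ => h1 j), ← sum_inner]
  have h3 : ∀ F : ℕ → C(ℝ, ℝ), ∑ j ∈ Finset.range N, Φ (F j) q = Φ (∑ j ∈ Finset.range N, F j) q := by
    intro F
    rw [map_sum, ContinuousLinearMap.sum_apply]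
  rw [h3]
  refine (real_inner_le_norm _ _).trans ?_
  have h4 := hΦ.nrm (∑ j ∈ Finset.range N,
      ((2 : ℝ) ^ (j + 1) • (ff j * ContinuousMap.id ℝ)) * ((2 : ℝ) ^ (j + 1) • (ff j * ContinuousMap.id ℝ))) 16
    (fun r hr => by
      have h5 : (∑ j ∈ Finset.range N,
          ((2 : ℝ) ^ (j + 1) • (ff j * ContinuousMap.id ℝ)) * ((2 : ℝ) ^ (j + 1) • (ff j * ContinuousMap.id ℝ))) r
          = ∑ j ∈ Finset.range N, (2 ^ (j + 1) * (ff j r * r)) ^ 2 := by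
        rw [ContinuousMap.sum_apply]
        refine Finset.sum_congr rfl (fun j _ => ?_)
        simp only [ContinuousMap.mul_apply, ContinuousMap.smul_apply, ContinuousMap.id_apply, smul_eq_mul]
        ring
      rw [h5, abs_of_nonneg (Finset.sum_nonneg (fun j _ => sq_nonneg _))]
      calc ∑ j ∈ Finset.range N, (2 ^ (j + 1) * (ff j r * r)) ^ 2
          ≤ ∑ j ∈ Finset.range N, 16 * ff j r := Finset.sum_le_sum (fun j _ => sq_ff hr.1)
        _ = 16 * (rho N r - rho 0 r) := by rw [← Finset.mul_sum, sum_ff]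
        _ ≤ 16 := by
            have := rho_nonneg 0 r
            have := rho_le_one N r
            linarith) q
  calc _ ≤ (16 * ‖q‖) * ‖q‖ := mul_le_mul_of_nonneg_right h4 (norm_nonneg _)
    _ = 16 * ‖q‖ ^ 2 := by ring

theorem Cal.sum_z (hΦ : Cal R Φ) (N : ℕ) (x : V) :
    ∑ j ∈ Finset.range N, Φ (ff j) x = Φ (rho N) x := by
  have h3 : ∑ j ∈ Finset.range N, Φ (ff j) x = Φ (∑ j ∈ Finset.range N, ff j) x := by
    rw [map_sum, ContinuousLinearMap.sum_apply]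
  rw [h3]
  apply hΦ.eq_of
  intro r hr
  rw [ContinuousMap.sum_apply, sum_ff, rho_zero_of (j := 0) (by simpa using hr.2), sub_zero]

theorem Cal.a_eq (hΦ : Cal R Φ) (j : ℕ) (q : V) : Φ (ell j) (Φ (ff j) (R q)) = Φ (ff j) (q - R q) := by
  have h1 : q - R q = Φ (1 - ContinuousMap.id ℝ) q := by
    rw [map_sub, map_one, hΦ.id_eq]; rfl
  rw [h1, hΦ.R_eq, hΦ.mul, hΦ.mul, hΦ.mul]
  apply hΦ.eq_of
  intro r hr
  have := ff_window (j := j) hr.1
  simp only [ContinuousMap.mul_apply, ContinuousMap.sub_apply, ContinuousMap.one_apply, ContinuousMap.id_apply]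
  linarith

theorem fin_bound (D : Dat R G X) (hΦ : Cal R Φ) (N : ℕ) {z a : V} (h : R (z + a) = z) :
    KK (G 1) (X 1) (Φ (rho N) z, Φ (rho N) a) (Φ (rho N) z, Φ (rho N) a) ≤ 719872 * ‖z + a‖ ^ 2 := by
  set q := z + a with hq
  have hz : R q = z := h
  have ha : q - R q = a := by rw [hz, hq]; abel
  have hp : (Φ (rho N) z, Φ (rho N) a) =
      ∑ j ∈ Finset.range N, (Φ (ff j) z, Φ (ell j) (Φ (ff j) z)) := by
    apply Prod.ext
    · rw [Prod.fst_sum]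
      exact (hΦ.sum_z N z).symm
    · rw [Prod.snd_sum]
      simp only
      rw [← hΦ.sum_z N a]
      refine Finset.sum_congr rfl (fun j _ => ?_)
      rw [← hz, hΦ.a_eq, ha]
  rw [hp, KK_sum]
  calc ∑ i ∈ Finset.range N, ∑ j ∈ Finset.range N,
        KK (G 1) (X 1) (Φ (ff i) z, Φ (ell i) (Φ (ff i) z)) (Φ (ff j) z, Φ (ell j) (Φ (ff j) z))
      ≤ ∑ i ∈ Finset.range N, ∑ j ∈ Finset.range N,
        5624 * ((3 / 4) ^ ((i - j) + (j - i)) * (2 ^ (i + 1) * ‖Φ (ff i) z‖) * (2 ^ (j + 1) * ‖Φ (ff j) z‖)) := by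
        refine Finset.sum_le_sum (fun i _ => Finset.sum_le_sum (fun j _ => ?_))
        refine (K_off' D (fun i => Φ (ell i)) (fun i x => hΦ.comm _ _)
          (fun i x => hΦ.nrm _ _ (fun r hr => ell_bound hr.2) x) (fun i => Φ (ff i) z)
          (fun i => hΦ.window i z) i j).trans (le_of_eq ?_)
        ring
    _ = 5624 * ∑ i ∈ Finset.range N, ∑ j ∈ Finset.range N,
        (3 / 4) ^ ((i - j) + (j - i)) * (2 ^ (i + 1) * ‖Φ (ff i) z‖) * (2 ^ (j + 1) * ‖Φ (ff j) z‖) := by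
        rw [Finset.mul_sum]
        refine Finset.sum_congr rfl (fun i _ => ?_)
        rw [Finset.mul_sum]
    _ ≤ 5624 * (8 * ∑ i ∈ Finset.range N, (2 ^ (i + 1) * ‖Φ (ff i) z‖) ^ 2) := by
        have := schur (fun i => 2 ^ (i + 1) * ‖Φ (ff i) z‖) N
        gcongr
    _ ≤ 5624 * (8 * (16 * ‖q‖ ^ 2)) := by
        have := hΦ.sum_sq N q
        rw [hz] at this
        gcongr
    _ = 719872 * ‖q‖ ^ 2 := by ring

/-- the range of `R` is dense -/
theorem dense_R (D : Dat R G X) (x : V) {ε : ℝ} (hε : 0 < ε) : ∃ y, ‖x - R y‖ < ε := by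
  have h1 : (LinearMap.range (R : V →ₗ[ℝ] V))ᗮ = ⊥ := by
    rw [Submodule.eq_bot_iff]
    intro y hy
    rw [Submodule.mem_orthogonal] at hy
    apply D.Ri
    have h2 := hy (R (R y)) ⟨R y, rfl⟩
    rw [D.Rs] at h2
    exact inner_self_eq_zero.1 h2
  have h2 : (LinearMap.range (R : V →ₗ[ℝ] V)).topologicalClosure = ⊤ :=
    Submodule.topologicalClosure_eq_top_iff.2 h1
  have h3 : x ∈ closure ((LinearMap.range (R : V →ₗ[ℝ] V)) : Set V) := by
    have h4 : x ∈ (LinearMap.range (R : V →ₗ[ℝ] V)).topologicalClosure := by rw [h2]; trivial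
    exact h4
  obtain ⟨w, ⟨y, rfl⟩, hw⟩ := Metric.mem_closure_iff.1 h3 ε hε
  exact ⟨y, by rw [← dist_eq_norm]; exact hw⟩

theorem rho_tendsto (D : Dat R G X) (hΦ : Cal R Φ) (x : V) :
    Tendsto (fun N => Φ (rho N) x) atTop (𝓝 x) := by
  rw [Metric.tendsto_atTop]
  intro ε hε
  obtain ⟨y, hy⟩ := dense_R D x (show 0 < ε / 4 by linarith)
  have h1 : Tendsto (fun N : ℕ => 2 * (1 / 2 : ℝ) ^ N * ‖y‖) atTop (𝓝 (2 * 0 * ‖y‖)) :=
    ((tendsto_pow_atTop_nhds_zero_of_lt_one (by norm_num) (by norm_num)).const_mul 2).mul_const _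
  rw [mul_zero, zero_mul] at h1
  obtain ⟨N0, hN0⟩ := (h1.eventually (gt_mem_nhds (show 0 < ε / 4 by linarith))).exists_forall_of_atTop
  refine ⟨N0, fun N hN => ?_⟩
  have h2 : ‖Φ (rho N) (R y) - R y‖ ≤ 2 * (1 / 2 : ℝ) ^ N * ‖y‖ := by
    have e : Φ (rho N) (R y) - R y = Φ ((rho N - 1) * ContinuousMap.id ℝ) y := by
      rw [← hΦ.mul, hΦ.id_eq, map_sub, map_one]; rfl
    rw [e]
    apply hΦ.nrm
    intro r hr
    rw [ContinuousMap.mul_apply, ContinuousMap.sub_apply, ContinuousMap.one_apply, ContinuousMap.id_apply]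
    have hp : (2 : ℝ) ^ N * (1 / 2) ^ N = 1 := by rw [← mul_pow]; norm_num
    have hpos : (0 : ℝ) < (1 / 2) ^ N := by positivity
    rcases le_or_gt 2 (2 ^ N * r) with h3 | h3
    · rw [rho_one_of h3]
      simp
    · have h4 : |rho N r - 1| ≤ 1 := by
        rw [abs_le]
        constructor <;> linarith [rho_nonneg N r, rho_le_one N r]
      have h5 : r ≤ 2 * (1 / 2) ^ N := by
        have h6 : (1 / 2 : ℝ) ^ N * (2 ^ N * r) ≤ (1 / 2) ^ N * 2 := by gcongr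
        have h7 : (1 / 2 : ℝ) ^ N * (2 ^ N * r) = (2 ^ N * (1 / 2) ^ N) * r := by ring
        rw [h7, hp] at h6
        linarith
      rw [abs_mul, abs_of_nonneg hr.1]
      calc |rho N r - 1| * r ≤ 1 * r := mul_le_mul_of_nonneg_right h4 hr.1
        _ ≤ 2 * (1 / 2) ^ N := by rw [one_mul]; exact h5
  have h3 : ‖Φ (rho N) (x - R y)‖ ≤ 1 * ‖x - R y‖ := by
    apply hΦ.nrm
    intro r _
    rw [abs_of_nonneg (rho_nonneg N r)]
    exact rho_le_one N r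
  have h4 := hN0 N hN
  rw [dist_eq_norm]
  have e : Φ (rho N) x - x = Φ (rho N) (x - R y) + (Φ (rho N) (R y) - R y) - (x - R y) := by
    rw [map_sub]; abel
  rw [e]
  calc ‖Φ (rho N) (x - R y) + (Φ (rho N) (R y) - R y) - (x - R y)‖
      ≤ ‖Φ (rho N) (x - R y) + (Φ (rho N) (R y) - R y)‖ + ‖x - R y‖ := norm_sub_le _ _
    _ ≤ ‖Φ (rho N) (x - R y)‖ + ‖Φ (rho N) (R y) - R y‖ + ‖x - R y‖ := by
        gcongr
        exact norm_add_le _ _
    _ < ε := by linarith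

/-- **The bound of the form `K`.** -/
theorem K_bound (D : Dat R G X) (hΦ : Cal R Φ) {z a : V} (h : R (z + a) = z) :
    KK (G 1) (X 1) (z, a) (z, a) ≤ 719872 * ‖z + a‖ ^ 2 := by
  have hz := rho_tendsto D hΦ z
  have ha := rho_tendsto D hΦ a
  have hc : Continuous (fun p : V × V => KK (G 1) (X 1) p p) := by
    unfold KK
    have c1 : Continuous (fun p : V × V => G 1 p.1 p.2) :=
      ((G 1).continuous.comp continuous_fst).clm_apply continuous_snd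
    have c2 : Continuous (fun p : V × V => G 1 p.2 p.1) :=
      ((G 1).continuous.comp continuous_snd).clm_apply continuous_fst
    have c3 : Continuous (fun p : V × V => X 1 p.1 p.1) :=
      ((X 1).continuous.comp continuous_fst).clm_apply continuous_fst
    exact ((c1.add c2).add c3).div_const 2
  have h1 : Tendsto (fun N => KK (G 1) (X 1) (Φ (rho N) z, Φ (rho N) a) (Φ (rho N) z, Φ (rho N) a)) atTop
      (𝓝 (KK (G 1) (X 1) (z, a) (z, a))) :=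
    (hc.tendsto (z, a)).comp (hz.prodMk_nhds ha)
  exact le_of_tendsto' h1 (fun N => fin_bound D hΦ N h)

end Vale.Agent.P245.H731
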