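import Vale.Agent.P245.H731.Cx
import Vale.Agent.P245.H731.Sum

/-! P245, KLS, abstract layer, part 4 (helper731): the abstract theorem in the interface form (without the
interface file). -/

set_option autoImplicit false
set_option linter.unusedSectionVars false

noncomputable section

open scoped InnerProductSpace Topology
open Filter

namespace Vale.Agent.P245.H731

variable {H : Type*} [NormedAddCommGroup H] [InnerProductSpace ℝ H]

/-- First coordinate, as an operator. -/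
def reL : CxH H →L[ℝ] H :=
  LinearMap.mkContinuous { toFun := re, map_add' := fun _ _ => rfl, map_smul' := fun _ _ => rfl } 1 (by
    intro x
    rw [one_mul]
    have h := nsq x
    change ‖re x‖ ≤ ‖x‖
    exact (pow_le_pow_iff_left₀ (norm_nonneg _) (norm_nonneg _) two_ne_zero).1 (by nlinarith [sq_nonneg ‖im x‖]))

/-- Second coordinate, as an operator. -/
def imL : CxH H →L[ℝ] H :=
  LinearMap.mkContinuous { toFun := im, map_add' := fun _ _ => rfl, map_smul' := fun _ _ => rfl } 1 (by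
    intro x
    rw [one_mul]
    have h := nsq x
    change ‖im x‖ ≤ ‖x‖
    exact (pow_le_pow_iff_left₀ (norm_nonneg _) (norm_nonneg _) two_ne_zero).1 (by nlinarith [sq_nonneg ‖re x‖]))

@[simp] theorem reL_apply (x : CxH H) : reL x = re x := rfl
@[simp] theorem imL_apply (x : CxH H) : imL x = im x := rfl

/-- the diagonal lift of a form -/
def bl (b : H →L[ℝ] H →L[ℝ] ℝ) : CxH H →L[ℝ] CxH H →L[ℝ] ℝ :=
  b.bilinearComp reL reL + b.bilinearComp imL imL

@[simp] theorem bl_apply (b : H →L[ℝ] H →L[ℝ] ℝ) (x y : CxH H) :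
    bl b x y = b (re x) (re y) + b (im x) (im y) := rfl

/-- the hypotheses in the form of the interface -/
structure Hyp [CompleteSpace H] (J : ℝ → H →L[ℝ] H) (B : ℕ → H →L[ℝ] H →L[ℝ] ℝ) : Prop where
  sym : ∀ s, 0 < s → ∀ x y, inner ℝ (J s x) y = inner ℝ x (J s y)
  r1 : ∀ s, 0 < s → ∀ z y, J 1 (z + y) = z → J s (z + s • y) = z
  pos : ∀ z y, J 1 (z + y) = z → 0 ≤ inner ℝ y z
  dense : ∀ x, Tendsto (fun m : ℕ => J (1 / ((m : ℝ) + 1)) x) atTop (𝓝 x)
  bsym : ∀ k x y, B k x y = B k y x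
  bpos : ∀ k x, 0 ≤ B k x x
  h1 : ∀ k : ℕ, 1 ≤ k → ∀ x, B (k - 1) x x ≤ (1 + 1 / (k : ℝ)) * B k x x
  bdd : ∃ M, ∀ k x, B k x x ≤ M * ‖x‖ ^ 2
  h4 : ∀ x, Tendsto (fun k => B k x x) atTop (𝓝 (‖x‖ ^ 2))
  hK : ∀ k : ℕ, 1 ≤ k → ∀ z y, J 1 (z + y) = z →
    0 ≤ B k z y + (k : ℝ) / 2 * (B k z z - B (k - 1) z z)
  h2 : ∀ k : ℕ, 1 ≤ k → ∀ z y e w, J 1 (z + y) = z → J 1 (e + w) = e →
    (B k y e - 1 / 2 * (B k z w + B k y e + (k : ℝ) * (B k z e - B (k - 1) z e))) ^ 2 ≤
      6 / ((k : ℝ) + 2) * (B k z y + (k : ℝ) / 2 * (B k z z - B (k - 1) z z)) * B k e e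

variable [CompleteSpace H] {J : ℝ → H →L[ℝ] H} {B : ℕ → H →L[ℝ] H →L[ℝ] ℝ}

theorem Hyp.h1' (h : Hyp J B) (k : ℕ) (x : H) : B 1 x x ≤ ((k : ℝ) + 2) / 2 * B (k + 1) x x := by
  induction k with
  | zero => simp
  | succ k ih =>
    have h1 := h.h1 (k + 1 + 1) (by omega) x
    simp only [Nat.add_sub_cancel] at h1
    push_cast at h1 ⊢
    have h2 : ((k : ℝ) + 2) / 2 * B (k + 1) x x ≤ ((k : ℝ) + 2) / 2 * ((1 + 1 / ((k : ℝ) + 1 + 1)) * B (k + 1 + 1) x x) := by
      gcongr
    refine ih.trans (h2.trans (le_of_eq ?_))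
    have : (k : ℝ) + 1 + 1 ≠ 0 := by positivity
    field_simp
    ring

theorem Hyp.Rpos (h : Hyp J B) (x : H) : ‖J 1 x‖ ^ 2 ≤ ⟪J 1 x, x⟫_ℝ := by
  have h1 := h.pos (J 1 x) (x - J 1 x) (by
    have : J 1 x + (x - J 1 x) = x := by abel
    rw [this])
  rw [inner_sub_left, real_inner_self_eq_norm_sq, real_inner_comm] at h1
  linarith

/-- the chain forms of the lift -/
def Xf (B : ℕ → H →L[ℝ] H →L[ℝ] ℝ) (k : ℕ) : H →L[ℝ] H →L[ℝ] ℝ := (k : ℝ) • (B k - B (k - 1))

theorem Xf_apply (B : ℕ → H →L[ℝ] H →L[ℝ] ℝ) (k : ℕ) (x y : H) :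
    Xf B k x y = (k : ℝ) * (B k x y - B (k - 1) x y) := rfl

theorem KK_self_lift (h : Hyp J B) (k : ℕ) (z a : H) :
    KK (B (k + 1)) (Xf B (k + 1)) (z, a) (z, a) =
      B (k + 1) z a + ((k + 1 : ℕ) : ℝ) / 2 * (B (k + 1) z z - B k z z) := by
  unfold KK
  simp only [Xf_apply, Nat.add_sub_cancel]
  rw [h.bsym (k + 1) a z]
  ring

theorem KK_lift (k : ℕ) (p q : CxH H × CxH H) :
    KK (bl (B k)) (Xf (fun k => bl (B k)) k) p q =
      KK (B k) (Xf B k) (re p.1, re p.2) (re q.1, re q.2) +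
      KK (B k) (Xf B k) (im p.1, im p.2) (im q.1, im q.2) := by
  unfold KK
  simp only [Xf_apply, bl_apply]
  ring

theorem sq_add_le {a b p q u v : ℝ} (hp : 0 ≤ p) (hq : 0 ≤ q) (hu : 0 ≤ u) (hv : 0 ≤ v)
    (h1 : a ^ 2 ≤ p * u) (h2 : b ^ 2 ≤ q * v) : (a + b) ^ 2 ≤ (p + q) * (u + v) := by
  have h3 : (2 * (a * b)) ^ 2 ≤ (p * v + q * u) ^ 2 := by
    have h4 : (a ^ 2) * (b ^ 2) ≤ (p * u) * (q * v) := mul_le_mul h1 h2 (sq_nonneg _) (mul_nonneg hp hu)
    nlinarith [sq_nonneg (p * v - q * u)]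
  have h5 : 2 * (a * b) ≤ p * v + q * u :=
    le_trans (le_abs_self _) (abs_le_of_sq_le_sq h3 (by positivity))
  nlinarith

theorem Hyp.dat (h : Hyp J B) : Dat (liftR (J 1)) (fun k => bl (B k)) (Xf (fun k => bl (B k))) where
  Rs x y := by
    rw [rinner, rinner, re_liftR, im_liftR, re_liftR, im_liftR, h.sym 1 one_pos, h.sym 1 one_pos]
  R0 x := by
    rw [rinner, re_liftR, im_liftR]
    have h1 := h.Rpos (re x)
    have h2 := h.Rpos (im x)
    have := sq_nonneg ‖J 1 (re x)‖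
    have := sq_nonneg ‖J 1 (im x)‖
    linarith
  R1 x := by
    have h1 : ∀ y, ‖J 1 y‖ ≤ ‖y‖ := by
      intro y
      have h2 := (h.Rpos y).trans (real_inner_le_norm _ _)
      rcases eq_or_lt_of_le (norm_nonneg (J 1 y)) with h3 | h3
      · rw [← h3]; exact norm_nonneg _
      · nlinarith
    have h2 : ‖liftR (J 1) x‖ ^ 2 ≤ ‖x‖ ^ 2 := by
      rw [nsq, nsq, re_liftR, im_liftR]
      have := h1 (re x)
      have := h1 (im x)
      gcongr
    exact (pow_le_pow_iff_left₀ (norm_nonneg _) (norm_nonneg _) two_ne_zero).1 h2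
  Ri x hx := by
    have h1 : ∀ y : H, J 1 y = 0 → y = 0 := by
      intro y hy
      have h2 : ∀ m : ℕ, J (1 / ((m : ℝ) + 1)) y = 0 := by
        intro m
        have hs : (0 : ℝ) < 1 / ((m : ℝ) + 1) := by positivity
        have h3 := h.r1 _ hs 0 y (by rw [zero_add, hy])
        rw [zero_add, map_smul] at h3
        exact (smul_eq_zero.1 h3).resolve_left hs.ne'
      have h3 := h.dense y
      simp only [h2] at h3
      exact tendsto_nhds_unique h3 tendsto_const_nhds
    apply ext'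
    · exact h1 _ (by rw [← re_liftR, hx]; rfl)
    · exact h1 _ (by rw [← im_liftR, hx]; rfl)
  Gs k x y := by
    rw [bl_apply, bl_apply, h.bsym k (re x), h.bsym k (im x)]
  G0 k x := by
    rw [bl_apply]
    exact add_nonneg (h.bpos _ _) (h.bpos _ _)
  Xe k x y := by
    rw [Xf_apply]
    push_cast
    rfl
  h1 k x := by
    rw [bl_apply, bl_apply]
    have h1 := h.h1' k (re x)
    have h2 := h.h1' k (im x)
    have h3 := h.bpos (k + 1) (re x)
    have h4 := h.bpos (k + 1) (im x)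
    have h5 : (0 : ℝ) ≤ k := Nat.cast_nonneg k
    nlinarith [mul_nonneg h5 h3, mul_nonneg h5 h4]
  h2 k z a e b hz he := by
    rw [KK_lift, KK_lift, bl_apply, bl_apply]
    have key : ∀ z a e b : H, J 1 (z + a) = z → J 1 (e + b) = e →
        (B (k + 1) a e - KK (B (k + 1)) (Xf B (k + 1)) (z, a) (e, b)) ^ 2 ≤
          (9 / ((k : ℝ) + 3) * KK (B (k + 1)) (Xf B (k + 1)) (z, a) (z, a)) * B (k + 1) e e ∧
        0 ≤ KK (B (k + 1)) (Xf B (k + 1)) (z, a) (z, a) := by
      intro z a e b hz he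
      have h1 := h.h2 (k + 1) (by omega) z a e b hz he
      have h2 := h.hK (k + 1) (by omega) z a hz
      simp only [Nat.add_sub_cancel] at h1 h2
      rw [← KK_self_lift h] at h1 h2
      refine ⟨?_, h2⟩
      have e1 : B (k + 1) a e - KK (B (k + 1)) (Xf B (k + 1)) (z, a) (e, b) =
          B (k + 1) a e - 1 / 2 * (B (k + 1) z b + B (k + 1) a e +
            ((k + 1 : ℕ) : ℝ) * (B (k + 1) z e - B k z e)) := by
        unfold KK
        simp only [Xf_apply, Nat.add_sub_cancel]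
        ring
      rw [e1]
      refine h1.trans ?_
      have e2 : (6 : ℝ) / (((k + 1 : ℕ) : ℝ) + 2) ≤ 9 / ((k : ℝ) + 3) := by
        push_cast
        have : (k : ℝ) + 1 + 2 = (k : ℝ) + 3 := by ring
        rw [this]
        gcongr
        norm_num
      exact mul_le_mul_of_nonneg_right (mul_le_mul_of_nonneg_right e2 h2) (h.bpos _ _)
    have hz1 : J 1 (re z + re a) = re z := by
      have := congrArg re hz; simpa using this
    have hz2 : J 1 (im z + im a) = im z := by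
      have := congrArg im hz; simpa using this
    have he1 : J 1 (re e + re b) = re e := by
      have := congrArg re he; simpa using this
    have he2 : J 1 (im e + im b) = im e := by
      have := congrArg im he; simpa using this
    obtain ⟨k1, k2⟩ := key _ _ _ _ hz1 he1
    obtain ⟨k3, k4⟩ := key _ _ _ _ hz2 he2
    have hp : (0 : ℝ) ≤ 9 / ((k : ℝ) + 3) := by positivity
    have h9 := sq_add_le (mul_nonneg hp k2) (mul_nonneg hp k4) (h.bpos _ _) (h.bpos _ _) k1 k3
    refine le_trans (le_of_eq ?_) (h9.trans (le_of_eq ?_))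
    · ring
    · ring
  h3 k z a hz := by
    rw [KK_lift, KK_self_lift h, KK_self_lift h]
    have hz1 : J 1 (re z + re a) = re z := by
      have := congrArg re hz; simpa using this
    have hz2 : J 1 (im z + im a) = im z := by
      have := congrArg im hz; simpa using this
    have h1 := h.hK (k + 1) (by omega) _ _ hz1
    have h2 := h.hK (k + 1) (by omega) _ _ hz2
    simp only [Nat.add_sub_cancel] at h1 h2
    exact add_nonneg h1 h2
  bdd := by
    obtain ⟨M, hM⟩ := h.bdd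
    refine ⟨M, fun k x => ?_⟩
    rw [bl_apply, nsq, mul_add]
    exact add_le_add (hM _ _) (hM _ _)
  h4 x := by
    simp only [bl_apply]
    rw [nsq]
    exact (h.h4 _).add (h.h4 _)

/-- **The abstract theorem** (for vectors in `D(A)`). -/
theorem hyp_bound (h : Hyp J B) {z y : H} (hz : J 1 (z + y) = z) :
    B 1 z y + 1 / 2 * (B 1 z z - B 0 z z) ≤ 719872 * ‖z + y‖ ^ 2 := by
  have hd := h.dat
  obtain ⟨Φ, g1, g2, g3⟩ := exists_cal (T := J 1) (h.sym 1 one_pos)
    (fun x => (sq_nonneg _).trans (h.Rpos x)) (fun y => by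
      have h2 := (h.Rpos y).trans (real_inner_le_norm _ _)
      rcases eq_or_lt_of_le (norm_nonneg (J 1 y)) with h3 | h3
      · rw [← h3]; exact norm_nonneg _
      · nlinarith)
  have hc : Cal (liftR (J 1)) Φ := ⟨g1, g2, g3⟩
  have hz' : liftR (J 1) (mk z 0 + mk y 0) = mk z 0 := by
    apply ext'
    · rw [re_liftR, re_add, re_mk, re_mk, hz]
    · simp
  have h1 := K_bound hd hc hz'
  rw [KK_lift] at h1
  have e1 : KK (B 1) (Xf B 1) (re (mk z (0 : H)), re (mk y (0 : H))) (re (mk z (0 : H)), re (mk y (0 : H))) =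
      B 1 z y + 1 / 2 * (B 1 z z - B 0 z z) := by
    have := KK_self_lift h 0 z y
    simpa using this
  have e2 : KK (B 1) (Xf B 1) (im (mk z (0 : H)), im (mk y (0 : H))) (im (mk z (0 : H)), im (mk y (0 : H))) = 0 := by
    unfold KK
    simp
  have e3 : ‖mk z (0 : H) + mk y (0 : H)‖ ^ 2 = ‖z + y‖ ^ 2 := by
    rw [nsq]; simp
  rw [e1, e2, e3, add_zero] at h1
  exact h1

end Vale.Agent.P245.H731
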