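import Mathlib

/-! P245, KLS, abstract layer, part 2 (helper731): forms on graph pairs, the window bound. -/

set_option autoImplicit false
set_option linter.unusedSectionVars false

noncomputable section

open scoped InnerProductSpace Topology
open Filter

namespace Vale.Agent.P245.H731

variable {V : Type*} [NormedAddCommGroup V] [InnerProductSpace ℝ V]

/-- The form `K` on graph pairs `(z, A z)`, `(e, A e)`. -/
def KK (G X : V →L[ℝ] V →L[ℝ] ℝ) (p q : V × V) : ℝ :=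
  (G p.1 q.2 + G p.2 q.1 + X p.1 q.1) / 2

/-- The hypotheses of the abstract layer (`R = (1 + A)⁻¹`, `G k` the forms of the chain). -/
structure Dat (R : V →L[ℝ] V) (G X : ℕ → V →L[ℝ] V →L[ℝ] ℝ) : Prop where
  Rs : ∀ x y, ⟪R x, y⟫_ℝ = ⟪x, R y⟫_ℝ
  R0 : ∀ x, 0 ≤ ⟪R x, x⟫_ℝ
  R1 : ∀ x, ‖R x‖ ≤ ‖x‖
  Ri : ∀ x, R x = 0 → x = 0
  Gs : ∀ k x y, G k x y = G k y x
  G0 : ∀ k x, 0 ≤ G k x x
  Xe : ∀ k x y, X (k + 1) x y = ((k : ℝ) + 1) * (G (k + 1) x y - G k x y)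
  h1 : ∀ (k : ℕ) x, G 1 x x ≤ ((k : ℝ) + 2) * G (k + 1) x x
  h2 : ∀ (k : ℕ) (z a e b : V), R (z + a) = z → R (e + b) = e →
    (G (k + 1) a e - KK (G (k + 1)) (X (k + 1)) (z, a) (e, b)) ^ 2 ≤
      9 / ((k : ℝ) + 3) * KK (G (k + 1)) (X (k + 1)) (z, a) (z, a) * G (k + 1) e e
  h3 : ∀ (k : ℕ) (z a : V), R (z + a) = z → 0 ≤ KK (G (k + 1)) (X (k + 1)) (z, a) (z, a)
  bdd : ∃ N : ℝ, ∀ k x, G k x x ≤ N * ‖x‖ ^ 2
  h4 : ∀ x, Tendsto (fun k => G k x x) atTop (𝓝 (‖x‖ ^ 2))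

/-- Cauchy-Schwarz for a nonnegative symmetric form. -/
theorem cs_op {G : V →L[ℝ] V →L[ℝ] ℝ} (hs : ∀ x y, G x y = G y x) (h0 : ∀ x, 0 ≤ G x x) (x y : V) :
    G x y ^ 2 ≤ G x x * G y y := by
  have h : ∀ t : ℝ, 0 ≤ G y y * (t * t) + (2 * G x y) * t + G x x := by
    intro t
    have h1 := h0 (x + t • y)
    simp only [map_add, map_smul, ContinuousLinearMap.add_apply, ContinuousLinearMap.smul_apply,
      smul_eq_mul] at h1
    rw [hs y x] at h1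
    linarith [h1]
  have h2 := discrim_le_zero h
  unfold discrim at h2
  nlinarith [h2]

/-- A window: `w ∈ D(A)` with `A w = B w`. -/
def Wd (R B : V →L[ℝ] V) (w : V) : Prop := R (w + B w) = w

theorem Wd.inv {R B : V →L[ℝ] V} (hc : ∀ x, R (B x) = B (R x)) {w : V} (h : Wd R B w) : Wd R B (B w) := by
  unfold Wd at h ⊢
  rw [← map_add, hc, h]

variable {R : V →L[ℝ] V} {G X : ℕ → V →L[ℝ] V →L[ℝ] ℝ}

theorem KK_self (D : Dat R G X) (k : ℕ) (z a : V) :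
    KK (G k) (X k) (z, a) (z, a) = G k a z + X k z z / 2 := by
  unfold KK
  have h1 : G k z a = G k a z := D.Gs k z a
  simp only
  rw [h1]
  ring

/-- one step of the chain -/
theorem one_step (D : Dat R G X) {B : V →L[ℝ] V} {d M : ℝ} (hd : 0 ≤ d) (hM : 0 ≤ M)
    (hc : ∀ x, R (B x) = B (R x)) (hB : ∀ x, ‖B x‖ ≤ d * ‖x‖) {n : ℕ} (hn : 1 ≤ n)
    (hF : ∀ w, Wd R B w → G (n + 1) w w ≤ M * ‖w‖ ^ 2) {w : V} (hw : Wd R B w) :
    G n w w - 12 * (Real.sqrt d * M * ‖w‖ ^ 2) / Real.sqrt n ≤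
      G (n + 1) w w - 12 * (Real.sqrt d * M * ‖w‖ ^ 2) / Real.sqrt ((n + 1 : ℕ) : ℝ) := by
  set c : ℝ := Real.sqrt d * M * ‖w‖ ^ 2 with hcdef
  have hc0 : 0 ≤ c := by positivity
  set s : ℝ := Real.sqrt n with hs
  set t : ℝ := Real.sqrt ((n + 1 : ℕ) : ℝ) with ht
  have hn1 : (1 : ℝ) ≤ n := by exact_mod_cast hn
  have hs0 : 0 < s := Real.sqrt_pos.2 (by linarith)
  have hs2 : s ^ 2 = n := Real.sq_sqrt (by linarith)
  have ht0 : 0 < t := Real.sqrt_pos.2 (by push_cast; linarith)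
  have ht2 : t ^ 2 = (n : ℝ) + 1 := by
    rw [ht, Real.sq_sqrt (by push_cast; linarith)]; push_cast; ring
  have hst : s ≤ t := by
    rw [hs, ht]
    exact Real.sqrt_le_sqrt (by push_cast; linarith)
  set x : ℝ := X (n + 1) w w with hx
  have hxF : x = ((n : ℝ) + 1) * (G (n + 1) w w - G n w w) := by
    rw [hx, D.Xe]
  have hF0 : 0 ≤ G (n + 1) w w := D.G0 _ _
  have hF1 : G (n + 1) w w ≤ M * ‖w‖ ^ 2 := hF w hw
  have hF2 : G (n + 1) (B w) (B w) ≤ M * (d * ‖w‖) ^ 2 := by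
    refine (hF _ (hw.inv hc)).trans ?_
    have := hB w
    gcongr
  set P : ℝ := G (n + 1) (B w) w with hP
  have hP2 : P ^ 2 ≤ (M * d * ‖w‖ ^ 2) ^ 2 := by
    have h1 := cs_op (D.Gs (n + 1)) (D.G0 (n + 1)) w (B w)
    rw [D.Gs (n + 1) w (B w)] at h1
    have h2 : G (n + 1) w w * G (n + 1) (B w) (B w) ≤ (M * ‖w‖ ^ 2) * (M * (d * ‖w‖) ^ 2) :=
      mul_le_mul hF1 hF2 (D.G0 _ _) (by positivity)
    calc P ^ 2 ≤ (M * ‖w‖ ^ 2) * (M * (d * ‖w‖) ^ 2) := h1.trans h2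
      _ = (M * d * ‖w‖ ^ 2) ^ 2 := by ring
  have hPle : P ≤ M * d * ‖w‖ ^ 2 := le_trans (le_abs_self _) (abs_le_of_sq_le_sq hP2 (by positivity))
  have hK3 := D.h3 n w (B w) hw
  have hK2 := D.h2 n w (B w) w (B w) hw hw
  rw [KK_self D] at hK3 hK2
  rw [← hP, ← hx] at hK3 hK2
  -- the decrement
  have key : -x ≤ 6 * c / t := by
    by_cases hx0 : 0 ≤ x
    · have : 0 ≤ 6 * c / t := by positivity
      linarith
    · push Not at hx0
      have h4 : P + x / 2 ≤ M * d * ‖w‖ ^ 2 := by linarith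
      have h5 : (x / 2) ^ 2 ≤ 9 / ((n : ℝ) + 3) * (M * d * ‖w‖ ^ 2) * (M * ‖w‖ ^ 2) := by
        have e1 : (P - (P + x / 2)) ^ 2 = (x / 2) ^ 2 := by ring
        rw [e1] at hK2
        refine hK2.trans ?_
        have h6 : (0 : ℝ) ≤ 9 / ((n : ℝ) + 3) := by positivity
        exact mul_le_mul (mul_le_mul_of_nonneg_left h4 h6) hF1 hF0 (by positivity)
      have h6 : 9 / ((n : ℝ) + 3) * (M * d * ‖w‖ ^ 2) * (M * ‖w‖ ^ 2) ≤ (3 * c / t) ^ 2 := by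
        have e2 : (3 * c / t) ^ 2 = 9 / ((n : ℝ) + 1) * (M * d * ‖w‖ ^ 2) * (M * ‖w‖ ^ 2) := by
          rw [div_pow, ht2, hcdef]
          have : Real.sqrt d ^ 2 = d := Real.sq_sqrt hd
          have e3 : (3 * (Real.sqrt d * M * ‖w‖ ^ 2)) ^ 2 = 9 * (Real.sqrt d ^ 2) * M ^ 2 * ‖w‖ ^ 4 := by ring
          rw [e3, this]
          ring
        rw [e2]
        gcongr
        linarith
      have h7 : (-(x / 2)) ^ 2 ≤ (3 * c / t) ^ 2 := by
        rw [neg_sq]; exact h5.trans h6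
      have h8 : -(x / 2) ≤ 3 * c / t := le_trans (le_abs_self _) (abs_le_of_sq_le_sq h7 (by positivity))
      have e4 : 6 * c / t = 2 * (3 * c / t) := by ring
      rw [e4]
      linarith
  have hdec : G n w w - G (n + 1) w w ≤ 6 * c / t ^ 3 := by
    have h9 : (G n w w - G (n + 1) w w) = (-x) / ((n : ℝ) + 1) := by
      rw [hxF]
      field_simp
      ring
    rw [h9, ← ht2]
    calc -x / t ^ 2 ≤ (6 * c / t) / t ^ 2 := by gcongr
      _ = 6 * c / t ^ 3 := by field_simp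
  have htel : 6 * c / t ^ 3 ≤ 12 * c / s - 12 * c / t := by
    have e5 : 12 * c / s - 12 * c / t = 12 * c * ((t ^ 2 - s ^ 2) / (s * t * (s + t))) := by
      field_simp
      ring
    have e6 : t ^ 2 - s ^ 2 = 1 := by rw [ht2, hs2]; ring
    rw [e5, e6]
    have h10 : s * t * (s + t) ≤ 2 * t ^ 3 := by
      have a1 : s * t ≤ t * t := by gcongr
      have a2 : s + t ≤ 2 * t := by linarith
      calc s * t * (s + t) ≤ t * t * (2 * t) := by gcongr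
        _ = 2 * t ^ 3 := by ring
    have h11 : 1 / (2 * t ^ 3) ≤ 1 / (s * t * (s + t)) := by
      apply one_div_le_one_div_of_le (by positivity) h10
    calc 6 * c / t ^ 3 = 12 * c * (1 / (2 * t ^ 3)) := by ring
      _ ≤ 12 * c * (1 / (s * t * (s + t))) := by gcongr
  linarith

theorem lim_F (D : Dat R G X) (w : V) : Tendsto (fun k => G k w w) atTop (𝓝 (‖w‖ ^ 2)) := D.h4 w

/-- improvement of a bound on a window -/
theorem improve (D : Dat R G X) {B : V →L[ℝ] V} {d M : ℝ} (hd : 0 ≤ d) (hM : 0 ≤ M)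
    (hc : ∀ x, R (B x) = B (R x)) (hB : ∀ x, ‖B x‖ ≤ d * ‖x‖) {k0 : ℕ} (hk1 : 1 ≤ k0)
    (hk0 : 576 * d ≤ k0)
    (hF : ∀ k, k0 ≤ k → ∀ w, Wd R B w → G k w w ≤ M * ‖w‖ ^ 2) :
    ∀ k, k0 ≤ k → ∀ w, Wd R B w → G k w w ≤ (1 + M / 2) * ‖w‖ ^ 2 := by
  intro k hk w hw
  set c : ℝ := Real.sqrt d * M * ‖w‖ ^ 2 with hcdef
  have hc0 : 0 ≤ c := by positivity
  have hmono : Monotone (fun i : ℕ => G (k + i) w w - 12 * c / Real.sqrt ((k + i : ℕ) : ℝ)) := by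
    apply monotone_nat_of_le_succ
    intro i
    exact one_step D hd hM hc hB (n := k + i) (by omega) (fun w hw => hF _ (by omega) w hw) hw
  have hlim : Tendsto (fun i : ℕ => G (k + i) w w - 12 * c / Real.sqrt ((k + i : ℕ) : ℝ)) atTop
      (𝓝 (‖w‖ ^ 2 - 0)) := by
    have hsh : Tendsto (fun i : ℕ => k + i) atTop atTop :=
    tendsto_atTop_mono (fun i => Nat.le_add_left i k) tendsto_id
    apply Tendsto.sub
    · exact (lim_F D w).comp hsh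
    · have h1 : Tendsto (fun i : ℕ => Real.sqrt ((k + i : ℕ) : ℝ)) atTop atTop :=
        Real.tendsto_sqrt_atTop.comp (tendsto_natCast_atTop_atTop.comp hsh)
      exact Tendsto.div_atTop tendsto_const_nhds h1
  have h2 := hmono.ge_of_tendsto hlim 0
  simp only [add_zero, sub_zero] at h2
  have hk' : (k0 : ℝ) ≤ k := by exact_mod_cast hk
  have hkpos : (0 : ℝ) < k := by
    have : (1 : ℝ) ≤ k0 := by exact_mod_cast hk1
    linarith
  have h3 : 12 * c / Real.sqrt k ≤ M / 2 * ‖w‖ ^ 2 := by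
    have h4 : 24 * Real.sqrt d ≤ Real.sqrt k := by
      have : 24 * Real.sqrt d = Real.sqrt (576 * d) := by
        rw [Real.sqrt_mul (by norm_num)]
        congr 1
        rw [show (576 : ℝ) = 24 ^ 2 by norm_num, Real.sqrt_sq (by norm_num)]
      rw [this]
      exact Real.sqrt_le_sqrt (hk0.trans hk')
    rw [div_le_iff₀ (Real.sqrt_pos.2 hkpos), hcdef]
    have h5 : 0 ≤ M / 2 * ‖w‖ ^ 2 := by positivity
    calc 12 * (Real.sqrt d * M * ‖w‖ ^ 2) = (M / 2 * ‖w‖ ^ 2) * (24 * Real.sqrt d) := by ring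
      _ ≤ (M / 2 * ‖w‖ ^ 2) * Real.sqrt k := mul_le_mul_of_nonneg_left h4 h5
  linarith

/-- uniform bound with a nonnegative constant -/
theorem unif (D : Dat R G X) : ∃ N : ℝ, 0 ≤ N ∧ ∀ k x, G k x x ≤ N * ‖x‖ ^ 2 := by
  obtain ⟨N, hN⟩ := D.bdd
  exact ⟨|N|, abs_nonneg _, fun k x => (hN k x).trans (by have := le_abs_self N; gcongr)⟩

theorem window_two (D : Dat R G X) {B : V →L[ℝ] V} {d : ℝ} (hd : 0 ≤ d)
    (hc : ∀ x, R (B x) = B (R x)) (hB : ∀ x, ‖B x‖ ≤ d * ‖x‖) {k0 : ℕ} (hk1 : 1 ≤ k0)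
    (hk0 : 576 * d ≤ k0) {k : ℕ} (hk : k0 ≤ k) {w : V} (hw : Wd R B w) :
    G k w w ≤ 2 * ‖w‖ ^ 2 := by
  obtain ⟨N, hN0, hN⟩ := unif D
  have h1 : ∀ n : ℕ, ∀ k, k0 ≤ k → ∀ w, Wd R B w → G k w w ≤ (2 + N * (1 / 2) ^ n) * ‖w‖ ^ 2 := by
    intro n
    induction n with
    | zero =>
      intro k _ w _
      refine (hN k w).trans ?_
      gcongr
      simp
    | succ n ih =>
      intro k hk w hw
      have h2 := improve D hd (M := 2 + N * (1 / 2) ^ n) (by positivity) hc hB hk1 hk0 ih k hk w hw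
      refine h2.trans (le_of_eq ?_)
      rw [pow_succ]
      ring
  have h2 : Tendsto (fun n : ℕ => (2 + N * (1 / 2 : ℝ) ^ n) * ‖w‖ ^ 2) atTop (𝓝 ((2 + N * 0) * ‖w‖ ^ 2)) := by
    apply Tendsto.mul_const
    apply Tendsto.const_add
    apply Tendsto.const_mul
    exact tendsto_pow_atTop_nhds_zero_of_lt_one (by norm_num) (by norm_num)
  rw [mul_zero, add_zero] at h2
  exact ge_of_tendsto' h2 (fun n => h1 n k hk w hw)

/-- the bound of `G 1` on a window -/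
theorem F_one (D : Dat R G X) {B : V →L[ℝ] V} {j : ℕ}
    (hc : ∀ x, R (B x) = B (R x)) (hB : ∀ x, ‖B x‖ ≤ (2 : ℝ) ^ j * ‖x‖) {w : V} (hw : Wd R B w) :
    G 1 w w ≤ 1154 * 2 ^ j * ‖w‖ ^ 2 := by
  have hj : 1 ≤ 2 ^ j := Nat.one_le_two_pow
  have hjr : (1 : ℝ) ≤ 2 ^ j := one_le_pow₀ (by norm_num)
  obtain ⟨k, hk⟩ : ∃ k, 576 * 2 ^ j = k + 1 := ⟨576 * 2 ^ j - 1, by omega⟩
  have h1 := D.h1 k w
  have h2 : G (k + 1) w w ≤ 2 * ‖w‖ ^ 2 :=
    window_two D (d := 2 ^ j) (by positivity) hc hB (k0 := 576 * 2 ^ j) (by omega)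
      (by push_cast; exact le_rfl) (by omega) hw
  have hkr : ((k : ℝ) + 1) = 576 * 2 ^ j := by exact_mod_cast hk.symm
  have h3 : ((k : ℝ) + 2) ≤ 577 * 2 ^ j := by linarith
  calc G 1 w w ≤ ((k : ℝ) + 2) * G (k + 1) w w := h1
    _ ≤ (577 * 2 ^ j) * (2 * ‖w‖ ^ 2) := mul_le_mul h3 h2 (D.G0 _ _) (by positivity)
    _ = 1154 * 2 ^ j * ‖w‖ ^ 2 := by ring

/-- the bound of the form `K` on a window -/
theorem K_one (D : Dat R G X) {B : V →L[ℝ] V} {j : ℕ}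
    (hc : ∀ x, R (B x) = B (R x)) (hB : ∀ x, ‖B x‖ ≤ (2 : ℝ) ^ j * ‖x‖) {w : V} (hw : Wd R B w) :
    KK (G 1) (X 1) (w, B w) (w, B w) ≤ 5770 * (2 ^ j * ‖w‖) ^ 2 := by
  have hjr : (1 : ℝ) ≤ 2 ^ j := one_le_pow₀ (by norm_num)
  have hF1 := F_one D hc hB hw
  have hF2 : G 1 (B w) (B w) ≤ 1154 * 2 ^ j * (2 ^ j * ‖w‖) ^ 2 := by
    refine (F_one D hc hB (hw.inv hc)).trans ?_
    have := hB w
    gcongr
  have hP2 : G 1 (B w) w ^ 2 ≤ (1154 * (2 ^ j * ‖w‖) ^ 2) ^ 2 := by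
    have h1 := cs_op (D.Gs 1) (D.G0 1) w (B w)
    rw [D.Gs 1 w (B w)] at h1
    have h2 : G 1 w w * G 1 (B w) (B w) ≤ (1154 * 2 ^ j * ‖w‖ ^ 2) * (1154 * 2 ^ j * (2 ^ j * ‖w‖) ^ 2) :=
      mul_le_mul hF1 hF2 (D.G0 _ _) (by positivity)
    exact (h1.trans h2).trans (le_of_eq (by ring))
  have hPle := le_trans (le_abs_self _) (abs_le_of_sq_le_sq hP2 (by positivity))
  have hK3 := D.h3 0 w (B w) hw
  have hK2 := D.h2 0 w (B w) w (B w) hw hw
  norm_num at hK3 hK2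
  set K := KK (G 1) (X 1) (w, B w) (w, B w) with hK
  set P := G 1 (B w) w with hP
  have hF3 : G 1 w w ≤ 1154 * (2 ^ j * ‖w‖) ^ 2 := by
    refine hF1.trans ?_
    have h5 : (2 : ℝ) ^ j * ‖w‖ ^ 2 ≤ (2 ^ j * 2 ^ j) * ‖w‖ ^ 2 := by
      have : (2 : ℝ) ^ j ≤ 2 ^ j * 2 ^ j := by nlinarith
      gcongr
    nlinarith
  set F := G 1 w w with hF
  have hF0 : 0 ≤ F := D.G0 _ _
  set Y := (2 ^ j * ‖w‖) ^ 2 with hY
  have hY0 : 0 ≤ Y := by positivity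
  by_contra hcon
  push Not at hcon
  have h6 : K / 2 + 3 / 2 * F < K - P := by linarith
  have h7 : (K / 2 + 3 / 2 * F) ^ 2 < (K - P) ^ 2 := by
    apply pow_lt_pow_left₀ h6 (by positivity) two_ne_zero
  nlinarith [sq_nonneg (K / 2 - 3 / 2 * F)]

theorem KK_symm (D : Dat R G X) (k : ℕ) (p q : V × V) :
    KK (G (k + 1)) (X (k + 1)) p q = KK (G (k + 1)) (X (k + 1)) q p := by
  unfold KK
  have h3 : X (k + 1) p.1 q.1 = X (k + 1) q.1 p.1 := by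
    rw [D.Xe, D.Xe, D.Gs (k + 1), D.Gs k]
  rw [D.Gs (k + 1) p.1 q.2, D.Gs (k + 1) p.2 q.1, h3]
  ring

/-- off-diagonal decay between two windows `i ≤ i + m` -/
theorem K_off (D : Dat R G X) {B B' : V →L[ℝ] V} {i m : ℕ}
    (hc : ∀ x, R (B x) = B (R x)) (hB : ∀ x, ‖B x‖ ≤ (2 : ℝ) ^ i * ‖x‖)
    (hc' : ∀ x, R (B' x) = B' (R x)) (hB' : ∀ x, ‖B' x‖ ≤ (2 : ℝ) ^ (i + m) * ‖x‖)
    {z e : V} (hz : Wd R B z) (he : Wd R B' e) :
    |KK (G 1) (X 1) (z, B z) (e, B' e)| ≤ 5624 * (3 / 4) ^ m * (2 ^ i * ‖z‖) * (2 ^ (i + m) * ‖e‖) := by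
  have hi : (1 : ℝ) ≤ 2 ^ i := one_le_pow₀ (by norm_num)
  set α : ℝ := 2 ^ i * ‖z‖ with hα
  set β : ℝ := 2 ^ (i + m) * ‖e‖ with hβ
  have hα0 : 0 ≤ α := by positivity
  have hβ0 : 0 ≤ β := by positivity
  set θ : ℝ := (3 / 4) ^ m with hθ
  have hθ0 : 0 < θ := by positivity
  have hθ2 : (1 / 2 : ℝ) ^ m ≤ θ ^ 2 := by
    rw [hθ, ← pow_mul, mul_comm, pow_mul]
    gcongr
    norm_num
  have hm : (1 / 2 : ℝ) ^ m * 2 ^ m = 1 := by
    rw [← mul_pow]; norm_num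
  have hFe : G 1 e e ≤ 1154 * 2 ^ (i + m) * ‖e‖ ^ 2 := F_one D hc' hB' he
  have hFe' : 2 ^ i * G 1 e e ≤ 1154 * θ ^ 2 * β ^ 2 := by
    have h1 : 2 ^ i * G 1 e e ≤ 2 ^ i * (1154 * 2 ^ (i + m) * ‖e‖ ^ 2) := by gcongr
    have h2 : (2 : ℝ) ^ i * (1154 * 2 ^ (i + m) * ‖e‖ ^ 2) = 1154 * (1 / 2) ^ m * β ^ 2 := by
      rw [hβ, mul_pow, pow_add]
      have : (1154 : ℝ) * (1 / 2) ^ m * ((2 ^ i * 2 ^ m) ^ 2 * ‖e‖ ^ 2) =
        ((1 / 2) ^ m * 2 ^ m) * (1154 * 2 ^ i * 2 ^ i * 2 ^ m * ‖e‖ ^ 2) := by ring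
      rw [this, hm]
      ring
    rw [h2] at h1
    refine h1.trans ?_
    gcongr
  have hFe0 : 0 ≤ G 1 e e := D.G0 _ _
  have hFe'' : G 1 e e ≤ 1154 * θ ^ 2 * β ^ 2 := by nlinarith
  have hFz : G 1 (B z) (B z) ≤ 1154 * 2 ^ i * α ^ 2 := by
    refine (F_one D hc hB (hz.inv hc)).trans ?_
    have := hB z
    gcongr
  have hP2 : G 1 (B z) e ^ 2 ≤ (1154 * θ * α * β) ^ 2 := by
    have h1 := cs_op (D.Gs 1) (D.G0 1) e (B z)
    rw [D.Gs 1 e (B z)] at h1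
    have h2 : G 1 e e * G 1 (B z) (B z) ≤ G 1 e e * (1154 * 2 ^ i * α ^ 2) :=
      mul_le_mul_of_nonneg_left hFz hFe0
    have h3 : G 1 e e * (1154 * 2 ^ i * α ^ 2) = (1154 * α ^ 2) * (2 ^ i * G 1 e e) := by ring
    have h4 : (1154 * α ^ 2) * (2 ^ i * G 1 e e) ≤ (1154 * α ^ 2) * (1154 * θ ^ 2 * β ^ 2) := by gcongr
    calc G 1 (B z) e ^ 2 ≤ (1154 * α ^ 2) * (1154 * θ ^ 2 * β ^ 2) := by
          rw [h3] at h2
          exact h1.trans (h2.trans h4)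
      _ = (1154 * θ * α * β) ^ 2 := by ring
  have hP := abs_le_of_sq_le_sq' hP2 (by positivity)
  have hK := K_one D hc hB hz
  have h2 := D.h2 0 z (B z) e (B' e) hz he
  norm_num at h2
  have hD : (G 1 (B z) e - KK (G 1) (X 1) (z, B z) (e, B' e)) ^ 2 ≤ (4470 * θ * α * β) ^ 2 := by
    refine h2.trans ?_
    have h5 : 3 * KK (G 1) (X 1) (z, B z) (z, B z) * G 1 e e ≤ 3 * (5770 * α ^ 2) * (1154 * θ ^ 2 * β ^ 2) := by
      apply mul_le_mul _ hFe'' hFe0 (by positivity)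
      gcongr
    refine h5.trans ?_
    have h6 : 0 ≤ (θ * α * β) ^ 2 := by positivity
    nlinarith
  have hD' := abs_le_of_sq_le_sq' hD (by positivity)
  rw [abs_le]
  constructor
  · linarith [hP.1, hP.2, hD'.1, hD'.2]
  · linarith [hP.1, hP.2, hD'.1, hD'.2]

/-- the symmetric form of the off-diagonal decay -/
theorem K_off' (D : Dat R G X) (B : ℕ → V →L[ℝ] V)
    (hc : ∀ i x, R (B i x) = B i (R x)) (hB : ∀ i x, ‖B i x‖ ≤ (2 : ℝ) ^ (i + 1) * ‖x‖) (z : ℕ → V)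
    (hz : ∀ i, Wd R (B i) (z i)) (i j : ℕ) :
    KK (G 1) (X 1) (z i, B i (z i)) (z j, B j (z j)) ≤
      5624 * (3 / 4) ^ ((i - j) + (j - i)) * (2 ^ (i + 1) * ‖z i‖) * (2 ^ (j + 1) * ‖z j‖) := by
  rcases le_total i j with h | h
  · obtain ⟨m, rfl⟩ := Nat.exists_eq_add_of_le h
    have e1 : i + m + 1 = (i + 1) + m := by ring
    have h1 := K_off D (i := i + 1) (m := m) (hc i) (hB i) (hc (i + m)) (by rw [← e1]; exact hB _) (hz i) (hz _)
    have e2 : (i - (i + m)) + (i + m - i) = m := by omega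
    rw [e2, e1]
    exact (le_abs_self _).trans h1
  · obtain ⟨m, rfl⟩ := Nat.exists_eq_add_of_le h
    have e1 : j + m + 1 = (j + 1) + m := by ring
    have h1 := K_off D (i := j + 1) (m := m) (hc j) (hB j) (hc (j + m)) (by rw [← e1]; exact hB _) (hz j) (hz _)
    have e2 : (j + m - j) + (j - (j + m)) = m := by omega
    have h2 := KK_symm D 0 (z (j + m), B (j + m) (z (j + m))) (z j, B j (z j))
    norm_num at h2
    rw [e2, e1, h2]
    refine (le_abs_self _).trans (h1.trans (le_of_eq ?_))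
    ring

/-- Schur sum -/
theorem schur_row (i N : ℕ) : ∑ j ∈ Finset.range N, (3 / 4 : ℝ) ^ ((i - j) + (j - i)) ≤ 8 := by
  have h : (N ≤ i + 1 → ∑ j ∈ Finset.range N, (3 / 4 : ℝ) ^ ((i - j) + (j - i)) ≤ 4 * (3 / 4) ^ (i + 1 - N)) ∧
      (i + 1 ≤ N → ∑ j ∈ Finset.range N, (3 / 4 : ℝ) ^ ((i - j) + (j - i)) ≤ 8 - 4 * (3 / 4) ^ (N - (i + 1))) := by
    induction N with
    | zero =>
      constructor
      · intro _; simp; positivity
      · intro h; omega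
    | succ N ih =>
      have key : N + 1 ≤ i + 1 →
          ∑ j ∈ Finset.range (N + 1), (3 / 4 : ℝ) ^ ((i - j) + (j - i)) ≤ 4 * (3 / 4) ^ (i + 1 - (N + 1)) := by
        intro h
        rw [Finset.sum_range_succ]
        have h1 := ih.1 (by omega)
        have e1 : i + 1 - N = (i + 1 - (N + 1)) + 1 := by omega
        have e2 : (i - N) + (N - i) = i + 1 - (N + 1) := by omega
        rw [e1, pow_succ] at h1
        rw [e2]
        linarith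
      refine ⟨key, ?_⟩
      intro h
      rcases Nat.lt_or_ge N (i + 1) with h2 | h2
      · have h3 := key (by omega)
        have e1 : i + 1 - (N + 1) = 0 := by omega
        have e2 : N + 1 - (i + 1) = 0 := by omega
        rw [e1, pow_zero] at h3
        rw [e2, pow_zero]
        linarith
      · have h3 := ih.2 h2
        rw [Finset.sum_range_succ]
        have e1 : (i - N) + (N - i) = (N - (i + 1)) + 1 := by omega
        have e2 : N + 1 - (i + 1) = (N - (i + 1)) + 1 := by omega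
        rw [e1, e2, pow_succ]
        have h4 : 0 < (3 / 4 : ℝ) ^ (N - (i + 1)) := by positivity
        linarith
  rcases le_total N (i + 1) with h1 | h1
  · refine (h.1 h1).trans ?_
    have : (3 / 4 : ℝ) ^ (i + 1 - N) ≤ 1 := pow_le_one₀ (by norm_num) (by norm_num)
    linarith
  · refine (h.2 h1).trans ?_
    have : 0 < (3 / 4 : ℝ) ^ (N - (i + 1)) := by positivity
    linarith

theorem schur (a : ℕ → ℝ) (N : ℕ) :
    ∑ i ∈ Finset.range N, ∑ j ∈ Finset.range N, (3 / 4 : ℝ) ^ ((i - j) + (j - i)) * a i * a j ≤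
      8 * ∑ i ∈ Finset.range N, a i ^ 2 := by
  have h1 : ∀ i j : ℕ, (3 / 4 : ℝ) ^ ((i - j) + (j - i)) * a i * a j ≤
      (3 / 4 : ℝ) ^ ((i - j) + (j - i)) * a i ^ 2 / 2 + (3 / 4 : ℝ) ^ ((j - i) + (i - j)) * a j ^ 2 / 2 := by
    intro i j
    have e : (j - i) + (i - j) = (i - j) + (j - i) := by omega
    rw [e]
    have : 0 < (3 / 4 : ℝ) ^ ((i - j) + (j - i)) := by positivity
    nlinarith [sq_nonneg (a i - a j)]
  calc ∑ i ∈ Finset.range N, ∑ j ∈ Finset.range N, (3 / 4 : ℝ) ^ ((i - j) + (j - i)) * a i * a j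
      ≤ ∑ i ∈ Finset.range N, ∑ j ∈ Finset.range N,
          ((3 / 4 : ℝ) ^ ((i - j) + (j - i)) * a i ^ 2 / 2 + (3 / 4 : ℝ) ^ ((j - i) + (i - j)) * a j ^ 2 / 2) :=
        Finset.sum_le_sum (fun i _ => Finset.sum_le_sum (fun j _ => h1 i j))
    _ = ∑ i ∈ Finset.range N, ∑ j ∈ Finset.range N, (3 / 4 : ℝ) ^ ((i - j) + (j - i)) * a i ^ 2 / 2 +
          ∑ i ∈ Finset.range N, ∑ j ∈ Finset.range N, (3 / 4 : ℝ) ^ ((j - i) + (i - j)) * a j ^ 2 / 2 := by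
        rw [← Finset.sum_add_distrib]
        exact Finset.sum_congr rfl (fun i _ => Finset.sum_add_distrib)
    _ = ∑ i ∈ Finset.range N, ∑ j ∈ Finset.range N, (3 / 4 : ℝ) ^ ((i - j) + (j - i)) * a i ^ 2 / 2 +
          ∑ i ∈ Finset.range N, ∑ j ∈ Finset.range N, (3 / 4 : ℝ) ^ ((i - j) + (j - i)) * a i ^ 2 / 2 := by
        congr 1
        exact Finset.sum_comm
    _ = ∑ i ∈ Finset.range N, a i ^ 2 * ∑ j ∈ Finset.range N, (3 / 4 : ℝ) ^ ((i - j) + (j - i)) := by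
        rw [← Finset.sum_add_distrib]
        refine Finset.sum_congr rfl (fun i _ => ?_)
        rw [← Finset.sum_add_distrib, Finset.mul_sum]
        exact Finset.sum_congr rfl (fun j _ => by ring)
    _ ≤ ∑ i ∈ Finset.range N, a i ^ 2 * 8 :=
        Finset.sum_le_sum (fun i _ => mul_le_mul_of_nonneg_left (schur_row i N) (sq_nonneg _))
    _ = 8 * ∑ i ∈ Finset.range N, a i ^ 2 := by rw [← Finset.sum_mul, mul_comm]

theorem KK_sum (G X : V →L[ℝ] V →L[ℝ] ℝ) (p : ℕ → V × V) (N : ℕ) :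
    KK G X (∑ i ∈ Finset.range N, p i) (∑ i ∈ Finset.range N, p i) =
      ∑ i ∈ Finset.range N, ∑ j ∈ Finset.range N, KK G X (p i) (p j) := by
  unfold KK
  simp only [Prod.fst_sum, Prod.snd_sum, map_sum, ContinuousLinearMap.sum_apply]
  rw [← Finset.sum_add_distrib, ← Finset.sum_add_distrib, Finset.sum_div, Finset.sum_comm]
  refine Finset.sum_congr rfl (fun i _ => ?_)
  rw [← Finset.sum_add_distrib, ← Finset.sum_add_distrib, Finset.sum_div]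

end Vale.Agent.P245.H731
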